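import Vale.Agent.P224.PO.Cst
import Vale.Agent.P224.UG.Ratio

/-!
Constants in dimensions 28, 30, 32, 34: the normalization of the flux and the least Clifford ratios.
-/

namespace Vale.Agent.P224.R2.H458

open Vale.Agent.P224 Vale.Agent.P224.UE Vale.Agent.P224.PO

lemma KHn_30 : KH 30 = 2326762800 := by
  have := KH_rec (m := 28) (by norm_num)
  rw [KHn_28] at this
  norm_num at this ⊢
  exact this

lemma KHn_32 : KH 32 = 9617286240 := by
  have := KH_rec (m := 30) (by norm_num)
  rw [KHn_30] at this
  norm_num at this ⊢
  exact this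

lemma KHn_34 : KH 34 = 39671305740 := by
  have := KH_rec (m := 32) (by norm_num)
  rw [KHn_32] at this
  norm_num at this ⊢
  exact this

lemma eR_15 : evenRatio 15 = 62386327575 * Real.pi / 137438953472 := by
  rw [show (15 : ℕ) = 13 + 2 by norm_num, evenRatio_rec, eR_13]
  norm_num
  ring

lemma eR_16 : evenRatio 16 = 6678671 / 4685824 := by
  rw [show (16 : ℕ) = 14 + 2 by norm_num, evenRatio_rec, eR_14]
  norm_num

lemma eR_17 : evenRatio 17 = 63821213109225 * Real.pi / 140737488355328 := by
  rw [show (17 : ℕ) = 15 + 2 by norm_num, evenRatio_rec, eR_15]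
  norm_num
  ring

/-- the least Clifford ratio in dimension 28 -/
theorem lc28 : leastClifford 28 ≤ 142688 / 100000 * sphereVol 28 :=
  even_bound (k := 14) (by norm_num) (by rw [eR_14]; norm_num)

/-- the least Clifford ratio in dimension 30 -/
theorem lc30 : leastClifford 30 ≤ 142604 / 100000 * sphereVol 30 := by
  refine even_bound (k := 15) (by norm_num) ?_
  rw [eR_15]
  have := Real.pi_lt_d20
  linarith

/-- the least Clifford ratio in dimension 32 -/
theorem lc32 : leastClifford 32 ≤ 1425293 / 1000000 * sphereVol 32 :=
  even_bound (k := 16) (by norm_num) (by rw [eR_16]; norm_num)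

/-- the least Clifford ratio in dimension 34 -/
theorem lc34 : leastClifford 34 ≤ 142464 / 100000 * sphereVol 34 := by
  refine even_bound (k := 17) (by norm_num) ?_
  rw [eR_17]
  have := Real.pi_lt_d20
  linarith

end Vale.Agent.P224.R2.H458
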